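import Mathlib

/-! Row 18 block ZE: translates of a polynomial on a torus and elimination of one variable. -/

set_option autoImplicit false
open MvPolynomial

namespace Crest.Agent.R18.ZE

variable {K : Type*} [Field K] {σ : Type*}

/-- `P (X) ↦ P (t X)` -/
noncomputable def sc (t : σ → Kˣ) : MvPolynomial σ K →ₐ[K] MvPolynomial σ K :=
  aeval fun i => C (t i : K) * X i

theorem sc_sc (s t : σ → Kˣ) : (sc s).comp (sc t) = sc (K := K) (s * t) := by
  ext1 i
  simp [sc, mul_left_comm, mul_assoc]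

theorem sc_one : sc (K := K) (1 : σ → Kˣ) = AlgHom.id _ _ := by
  ext1 i
  simp [sc]

/-- `sc` as an automorphism -/
noncomputable def scE (t : σ → Kˣ) : MvPolynomial σ K ≃ₐ[K] MvPolynomial σ K :=
  AlgEquiv.ofAlgHom (sc t) (sc t⁻¹) (by rw [sc_sc, mul_inv_cancel, sc_one]) (by rw [sc_sc, inv_mul_cancel, sc_one])

theorem eval_sc (t : σ → Kˣ) (x : σ → K) (P : MvPolynomial σ K) :
    eval x (sc t P) = eval (fun i => t i * x i) P := by
  induction P using MvPolynomial.induction_on <;> simp_all [sc]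

theorem coeff_sc [Fintype σ] (t : σ → Kˣ) (m : σ →₀ ℕ) (P : MvPolynomial σ K) :
    coeff m (sc t P) = ((∏ i, t i ^ m i : Kˣ) : K) * coeff m P := by
  classical
  induction P using MvPolynomial.induction_on' with
  | monomial n c =>
    have : sc t (monomial n c) = monomial n (((∏ i, t i ^ n i : Kˣ) : K) * c) := by
      rw [sc, aeval_monomial, monomial_eq, Finsupp.prod_fintype _ _ (by simp), Finsupp.prod_fintype _ _ (by simp)]
      simp [mul_pow, Finset.prod_mul_distrib, mul_left_comm, mul_assoc]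
    rw [this, coeff_monomial, coeff_monomial]
    split_ifs with h
    · rw [h]
    · rw [mul_zero]
  | add p q hp hq => rw [map_add, coeff_add, coeff_add, hp, hq, mul_add]

theorem totalDegree_sc [Fintype σ] (t : σ → Kˣ) (P : MvPolynomial σ K) :
    (sc t P).totalDegree = P.totalDegree := by
  have : (sc t P).support = P.support := by
    ext m
    rw [mem_support_iff, mem_support_iff, coeff_sc, mul_ne_zero_iff_left (Units.ne_zero _)]
  rw [totalDegree, this, totalDegree]

theorem strip (P : MvPolynomial σ K) (hP : P ≠ 0) : ∃ Q : MvPolynomial σ K, Q ≠ 0 ∧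
    Q.totalDegree ≤ P.totalDegree ∧ (∀ i, ¬ X i ∣ Q) ∧
      ∀ x : σ → Kˣ, eval (fun i => (x i : K)) P = 0 → eval (fun i => (x i : K)) Q = 0 := by
  induction h : P.totalDegree using Nat.strong_induction_on generalizing P with
  | _ n ih =>
    by_cases h1 : ∃ i, X i ∣ P
    · obtain ⟨i, Q, rfl⟩ := h1
      have h2 := right_ne_zero_of_mul hP
      rw [totalDegree_mul_of_isDomain (X_ne_zero i) h2, totalDegree_X] at h
      obtain ⟨R, h3, h4, h5, h6⟩ := ih _ (by omega) Q h2 rfl
      exact ⟨R, h3, by omega, h5, fun x hx => h6 x (by simpa using hx)⟩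
    · exact ⟨P, hP, h.le, not_exists.1 h1, fun _ h => h⟩

theorem card_le [Fintype σ] {ι : Type*} (H : Finset ι) (t : ι → σ → Kˣ)
    (ht : ∀ h ∈ H, ∀ h' ∈ H, ∀ m : σ → ℤ, m ≠ 0 → ∏ i, (t h i / t h' i) ^ m i = 1 → h = h')
    {P π : MvPolynomial σ K} (hP : P ≠ 0) (hπ : Prime π) (hX : ∀ i, ¬ X i ∣ π) (hd : ∀ h ∈ H, π ∣ sc (t h) P) :
    H.card ≤ P.totalDegree := by
  classical
  obtain ⟨m, hm, m', hm', hmm⟩ : ∃ m ∈ π.support, ∃ m' ∈ π.support, m ≠ m' := by
    by_contra! h
    obtain ⟨m, hm⟩ := support_nonempty.2 hπ.ne_zero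
    have e : π = monomial m (coeff m π) := by
      conv_lhs => rw [π.as_sum]
      exact Finset.sum_eq_single_of_mem m hm fun b hb h' => (h' (h b hb m hm)).elim
    have e' : m = 0 := Finsupp.ext fun i => by
      by_contra h'
      exact hX i (e ▸ X_dvd_monomial.2 (Or.inr h'))
    refine hπ.not_isUnit ?_
    rw [e, e']
    exact (IsUnit.mk0 _ (mem_support_iff.1 (e' ▸ hm))).map C
  have hp (h : ι) : Prime (sc (t h)⁻¹ π) := (MulEquiv.prime_iff (scE (t h)⁻¹)).2 hπ
  have h1 : ∏ h ∈ H, sc (t h)⁻¹ π ∣ P := by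
    refine Finset.prod_dvd_of_isRelPrime (fun h hh h' hh' hne => ?_) fun h hh => ?_
    · refine (hp h).irreducible.isRelPrime_iff_not_dvd.2 fun hd => hne (ht h hh h' hh'
        (fun i => (m i : ℤ) - m' i) (fun e => hmm (Finsupp.ext fun i => ?_)) ?_)
      · have := congrFun e i
        simp only [Pi.zero_apply] at this
        omega
      obtain ⟨u, hu⟩ := (hp h).irreducible.associated_of_dvd (hp h').irreducible hd
      obtain ⟨c, -, hc⟩ := isUnit_iff_eq_C_of_isReduced.1 u.isUnit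
      have h2 (n : σ →₀ ℕ) (hn : n ∈ π.support) : (((∏ i, (t h' i)⁻¹ ^ n i) / ∏ i, (t h i)⁻¹ ^ n i : Kˣ) : K) = c := by
        have := congrArg (coeff n) hu
        rw [hc, mul_comm, coeff_C_mul, coeff_sc, coeff_sc, ← mul_assoc,
          mul_left_inj' (mem_support_iff.1 hn)] at this
        rw [Units.val_div_eq_div_val, div_eq_iff (Units.ne_zero _)]
        exact this.symm
      have h3 := Units.ext ((h2 m hm).trans (h2 m' hm').symm)
      rw [← Finset.prod_div_distrib, ← Finset.prod_div_distrib, ← div_eq_one, ← Finset.prod_div_distrib] at h3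
      refine Eq.trans (Finset.prod_congr rfl fun i _ => ?_) h3
      rw [← div_pow, ← div_pow, inv_div_inv, zpow_sub, zpow_natCast, zpow_natCast, div_eq_mul_inv (_ ^ _)]
    · have := map_dvd (sc (t h)⁻¹) (hd h hh)
      rwa [← AlgHom.comp_apply, sc_sc, inv_mul_cancel, sc_one] at this
  refine le_trans ?_ (totalDegree_le_of_dvd_of_isDomain h1 hP)
  have h0 : 1 ≤ π.totalDegree := Nat.one_le_iff_ne_zero.2 fun h => by
    rw [totalDegree_eq_zero_iff] at h
    exact hmm (Finsupp.ext fun i => (h m hm i).trans (h m' hm' i).symm)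
  clear h1 hd ht
  induction H using Finset.induction_on with
  | empty => simp
  | insert a s ha ih =>
    rw [Finset.prod_insert ha, Finset.card_insert_of_notMem ha, totalDegree_mul_of_isDomain (hp a).ne_zero
      (Finset.prod_ne_zero_iff.2 fun h _ => (hp h).ne_zero), totalDegree_sc]
    omega

theorem exists_relPrime [Infinite K] {P : MvPolynomial σ K} (hP : P ≠ 0) (V : Submodule K (MvPolynomial σ K))
    (h : ∀ π, Prime π → π ∣ P → ∃ Q ∈ V, ¬ π ∣ Q) : ∃ Q ∈ V, IsRelPrime P Q := by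
  classical
  obtain ⟨Q, hQ⟩ := Submodule.exists_forall_notMem_of_forall_ne_top
    (ι := (UniqueFactorizationMonoid.factors P).toFinset)
    (fun π => ((Ideal.span {π.1}).restrictScalars K).comap V.subtype) fun π e => by
      have h1 := Multiset.mem_toFinset.1 π.2
      obtain ⟨Q, h2, h3⟩ := h π (UniqueFactorizationMonoid.prime_of_factor _ h1)
        (UniqueFactorizationMonoid.dvd_of_mem_factors h1)
      exact h3 (Ideal.mem_span_singleton.1 ((Submodule.eq_top_iff'.1 e) ⟨Q, h2⟩))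
  refine ⟨Q, Q.2, (UniqueFactorizationMonoid.isRelPrime_iff_no_prime_factors hP).2 fun π h1 h2 h3 => ?_⟩
  obtain ⟨q, h4, h5⟩ := UniqueFactorizationMonoid.exists_mem_factors_of_dvd hP h3.irreducible h1
  exact hQ ⟨q, Multiset.mem_toFinset.2 h4⟩ (Ideal.mem_span_singleton.2 (h5.symm.dvd.trans h2))

theorem resultant_ne {R : Type*} [CommRing R] [IsDomain R] [DecompositionMonoid (Polynomial R)]
    {f g : Polynomial R} (hf : f ≠ 0) (h : IsRelPrime f g) {n : ℕ} (hn : g.natDegree ≤ n) :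
    f.resultant g f.natDegree n ≠ 0 := by
  intro h0
  obtain ⟨v, hv, h1⟩ := Matrix.exists_mulVec_eq_zero_iff.2 h0
  set b := ((Polynomial.degreeLT.basis R f.natDegree).prod (Polynomial.degreeLT.basis R n)).reindex finSumFinEquiv
  obtain ⟨x, rfl⟩ := b.equivFun.surjective v
  rw [← Polynomial.toMatrix_sylvesterMap' f g le_rfl hn, b.equivFun_apply, LinearMap.toMatrix_mulVec_repr] at h1
  have h2 : f * x.2 + g * x.1 = 0 := congrArg Subtype.val
    ((Polynomial.degreeLT.basis R _).repr.map_eq_zero_iff.1 (Finsupp.coe_eq_zero.1 h1))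
  have h3 : (x.1 : Polynomial R) = 0 := by
    refine Polynomial.eq_zero_of_dvd_of_degree_lt (h.dvd_of_dvd_mul_left ⟨-x.2, by linear_combination h2⟩) ?_
    rw [Polynomial.degree_eq_natDegree hf]
    exact Polynomial.mem_degreeLT.1 x.1.2
  rw [h3, mul_zero, add_zero, mul_eq_zero_iff_left hf] at h2
  exact hv (by rw [show x = 0 from Prod.ext (Subtype.ext h3) (Subtype.ext h2), map_zero])

theorem totalDegree_det {n : Type*} [Fintype n] [DecidableEq n] (M : Matrix n n (MvPolynomial σ K)) {D : ℕ}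
    (h : ∀ i j, (M i j).totalDegree ≤ D) : M.det.totalDegree ≤ Fintype.card n * D := by
  rw [Matrix.det_apply]
  refine totalDegree_finsetSum_le fun s _ => (totalDegree_smul_le _ _).trans ((totalDegree_finsetProd _ _).trans ?_)
  exact (Finset.sum_le_card_nsmul _ _ _ fun i _ => h _ _).trans_eq (by simp)

theorem elim {d D : ℕ} {P Q : MvPolynomial (Fin (d + 1)) K} (hP : P ≠ 0) (h : IsRelPrime P Q)
    (h1 : P.totalDegree ≤ D) (h2 : Q.totalDegree ≤ D) : ∃ R : MvPolynomial (Fin d) K, R ≠ 0 ∧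
      R.totalDegree ≤ (2 * D + 1) * D ∧ ∀ x, eval x P = 0 → eval x Q = 0 → eval (Fin.tail x) R = 0 := by
  have hc {P : MvPolynomial (Fin (d + 1)) K} (h : P.totalDegree ≤ D) (i : ℕ) :
      ((finSuccEquiv K d P).coeff i).totalDegree ≤ D := by
    by_cases h0 : (finSuccEquiv K d P).coeff i = 0
    · simp [h0]
    · have := totalDegree_coeff_finSuccEquiv_add_le P i h0
      omega
  have hn {P : MvPolynomial (Fin (d + 1)) K} (h : P.totalDegree ≤ D) : (finSuccEquiv K d P).natDegree ≤ D := by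
    rw [natDegree_finSuccEquiv]
    exact (degreeOf_le_totalDegree _ _).trans h
  have h3 := (hn h2).trans (Nat.le_succ D)
  refine ⟨_, resultant_ne (f := finSuccEquiv K d P) (by simpa using hP)
    (IsRelPrime.of_map (finSuccEquiv K d).symm (by simpa using h)) h3, ?_, fun x hx hx' => ?_⟩
  · refine (totalDegree_det _ (D := D) fun i j => ?_).trans (Nat.mul_le_mul_right _ ?_)
    · induction j using Fin.addCases <;> simp only [Polynomial.sylvester, Matrix.of_apply, Fin.addCases_left,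
        Fin.addCases_right] <;> split_ifs <;> simp [hc h1, hc h2]
    · have := hn h1
      rw [Fintype.card_fin]
      omega
  · obtain ⟨p, q, -, -, e⟩ := Polynomial.exists_mul_add_mul_eq_C_resultant _ _ (le_refl (finSuccEquiv K d P).natDegree)
      h3 (Or.inr D.succ_ne_zero)
    rw [← Fin.cons_self_tail x, eval_eq_eval_mv_eval'] at hx hx'
    have := congrArg (fun f => Polynomial.eval (x 0) (Polynomial.map (eval (Fin.tail x)) f)) e
    simpa [hx, hx'] using this.symm

theorem step [Infinite K] {d D : ℕ} {ι : Type*} (H : Finset ι) (t : ι → Fin (d + 1) → Kˣ)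
    (ht : ∀ h ∈ H, ∀ h' ∈ H, ∀ m : Fin (d + 1) → ℤ, m ≠ 0 → ∏ i, (t h i / t h' i) ^ m i = 1 → h = h')
    (hH : D < H.card) (Z : Set (Fin (d + 1) → Kˣ)) {P : MvPolynomial (Fin (d + 1)) K} (hP : P ≠ 0)
    (hD : P.totalDegree ≤ D) (h0 : ∀ z ∈ Z, eval (fun i => (z i : K)) P = 0)
    (h1 : ∀ h ∈ H, ∀ z ∈ Z, eval (fun i => ((t h * z) i : K)) P = 0) : ∃ R : MvPolynomial (Fin d) K, R ≠ 0 ∧
      R.totalDegree ≤ (2 * D + 1) * D ∧ ∀ z ∈ Z, eval (fun i => (z i.succ : K)) R = 0 := by
  obtain ⟨P, hP, h2, hX, h3⟩ := strip P hP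
  let V : Submodule K (MvPolynomial (Fin (d + 1)) K) := restrictTotalDegree _ K D ⊓
    ⨅ z ∈ Z, LinearMap.ker (aeval fun i => (z i : K)).toLinearMap
  have hV (Q) : Q ∈ V ↔ Q.totalDegree ≤ D ∧ ∀ z ∈ Z, eval (fun i => (z i : K)) Q = 0 := by
    simp [V, mem_restrictTotalDegree]
  obtain ⟨Q, h4, h5⟩ := exists_relPrime hP V fun π hπ hd => by
    by_contra! h
    have := card_le H t ht hP hπ (fun i hi => hX i (hi.trans hd)) fun a ha => h _ ((hV _).2
      ⟨(totalDegree_sc _ _).trans_le (h2.trans hD), fun z hz => (eval_sc _ _ _).trans (h3 _ (h1 a ha z hz))⟩)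
    omega
  obtain ⟨R, h6, h7, h8⟩ := elim hP h5 (h2.trans hD) ((hV Q).1 h4).1
  exact ⟨R, h6, h7, fun z hz => h8 _ (h3 z (h0 z hz)) (((hV Q).1 h4).2 z hz)⟩

end Crest.Agent.R18.ZE
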